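import Vale.Agent.P091.H409.Defs

set_option linter.all false

/-! From the multi-block main lemma to everywhere divergence in `φ(L)`. -/

open MeasureTheory AddCircle Finset

namespace Vale.Agent.P091.H203

open Vale.Agent.P091 Vale.Agent.P091.H409

/-- The lacunary growth condition: along arbitrarily long lacunary sequences of logarithmic
heights `v 0, v 1, ...`, the quotients `φ(u) / (u √(log u))` are on average small compared with
the square root of the logarithm of the number of heights. -/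
def LacCond (φ : ℝ → ℝ) : Prop :=
  ∀ η : ℝ, 0 < η → ∀ M : ℕ, ∃ K : ℕ, M ≤ K ∧ ∃ v lam : ℕ → ℝ, (K : ℝ) ^ 3 ≤ v 0 ∧
    (∀ k, 4 * v k ≤ v (k + 1)) ∧
    (∀ k, k < K → ∀ u : ℝ, 1 ≤ u → Real.log u ≤ v k → φ u ≤ lam k * u) ∧
    ∑ k ∈ range K, lam k / Real.sqrt (v k) ≤ η * (K * Real.sqrt (Real.log K))

theorem pt_bound (φ : ℝ → ℝ) (hφ0 : ∀ u, 0 ≤ u → 0 ≤ φ u) (K : ℕ) (v lam g : ℕ → ℝ) (A : ℝ)
    (hA : 1 ≤ A) (hv : ∀ k, v 0 ≤ v k) (hv0 : 2 * K * A ≤ Real.exp (v 0 / 2))
    (hlam : ∀ k, k < K → ∀ u : ℝ, 1 ≤ u → Real.log u ≤ v k → φ u ≤ lam k * u)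
    (hg0 : ∀ k, k < K → 0 ≤ g k) (hg : ∀ k, k < K → g k ≤ Real.exp (v k / 2))
    (h1 : 1 ≤ A * ∑ k ∈ range K, g k) :
    φ (A * ∑ k ∈ range K, g k) ≤ 2 * A * ∑ k ∈ range K, lam k * g k := by
  set S : ℝ := ∑ k ∈ range K, g k with hS
  have hA0 : 0 < A := by linarith
  have hS0 : 0 < S := by
    by_contra hcon
    push Not at hcon
    nlinarith
  have hK0 : 0 < K := by
    rcases Nat.eq_zero_or_pos K with h | h
    · rw [hS, h] at hS0
      simp at hS0
    · exact h
  have hKr : (0 : ℝ) < K := by exact_mod_cast hK0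
  have hφS : 0 ≤ φ (A * S) := hφ0 _ (by positivity)
  have hkey : ∀ k ∈ range K, φ (A * S) * g k ≤ A * S * (lam k * g k) + φ (A * S) * (S / (2 * K)) := by
    intro k hk
    have hk' : k < K := Finset.mem_range.1 hk
    have hl0 : 0 ≤ φ (A * S) * (S / (2 * K)) := by positivity
    by_cases hlog : Real.log (A * S) ≤ v k
    · have h2 := hlam k hk' (A * S) h1 hlog
      have h3 : φ (A * S) * g k ≤ lam k * (A * S) * g k :=
        mul_le_mul_of_nonneg_right h2 (hg0 k hk')
      linarith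
    · push Not at hlog
      have hlamk : 0 ≤ lam k := by
        have h2 := hlam k hk' 1 le_rfl (by
          rw [Real.log_one]
          have h3 : 1 ≤ Real.exp (v 0 / 2) := by
            refine le_trans ?_ hv0
            have : (1 : ℝ) ≤ K := by exact_mod_cast hK0
            nlinarith
          have h4 : 0 ≤ v 0 / 2 := Real.one_le_exp_iff.1 h3
          have := hv k
          linarith)
        have h3 := hφ0 1 zero_le_one
        linarith
      have h2 : g k ≤ S / (2 * K) := by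
        refine (hg k hk').trans ?_
        rw [le_div_iff₀ (by positivity)]
        have h3 : Real.exp (v k) ≤ A * S := by
          rw [← Real.le_log_iff_exp_le (by positivity)]
          exact hlog.le
        have h4 : 2 * K * A ≤ Real.exp (v k / 2) := by
          refine hv0.trans (Real.exp_le_exp.2 ?_)
          have := hv k
          linarith
        have h5 : Real.exp (v k) = Real.exp (v k / 2) * Real.exp (v k / 2) := by
          rw [← Real.exp_add]; congr 1; ring
        have h6 : Real.exp (v k / 2) * (2 * K * A) ≤ A * S := by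
          calc Real.exp (v k / 2) * (2 * K * A) ≤ Real.exp (v k / 2) * Real.exp (v k / 2) := by
                gcongr
            _ ≤ A * S := by rw [← h5]; exact h3
        have h7 : A * (Real.exp (v k / 2) * (2 * K)) ≤ A * S := by linarith
        exact le_of_mul_le_mul_left h7 hA0
      have h3 : φ (A * S) * g k ≤ φ (A * S) * (S / (2 * K)) :=
        mul_le_mul_of_nonneg_left h2 hφS
      have h4 : 0 ≤ A * S * (lam k * g k) := by
        have := hg0 k hk'
        positivity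
      linarith
  have hsum := Finset.sum_le_sum hkey
  rw [← Finset.mul_sum, ← hS, Finset.sum_add_distrib, ← Finset.mul_sum, Finset.sum_const,
    Finset.card_range, nsmul_eq_mul] at hsum
  have h2 : (K : ℝ) * (φ (A * S) * (S / (2 * K))) = φ (A * S) * S / 2 := by
    field_simp
  rw [h2] at hsum
  have h3 : S * φ (A * S) ≤ S * (2 * A * ∑ k ∈ range K, lam k * g k) := by linarith
  exact le_of_mul_le_mul_left h3 hS0

theorem phi_bound_gen (φ : ℝ → ℝ) (hφ0 : ∀ u, 0 ≤ u → 0 ≤ φ u) (hφm : MonotoneOn φ (Set.Ici 0))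
    (g G : ℕ → ℝ) (hg : ∀ j, 0 ≤ g j) (hG : ∀ j, 0 ≤ G j) (hgs : Summable g)
    (hGs : Summable G)
    (h : ∀ j, (1 / 2) ^ (j + 1) < g j → φ (2 ^ (j + 4) * g j) ≤ G j)
    (F : ℝ) (hF0 : 0 ≤ F) (hF : F ≤ ∑' j, g j + 4) :
    φ F ≤ φ 5 + ∑' j, G j := by
  set h' : ℕ → ℝ := fun j => max (g j - (1 / 2) ^ (j + 1)) 0 with hh'
  have hgeo : Summable fun j : ℕ => (1 / 2 : ℝ) ^ (j + 1) :=
    (summable_nat_add_iff 1).2 (summable_geometric_of_lt_one (by norm_num) (by norm_num))
  have hgeo1 : ∑' j : ℕ, (1 / 2 : ℝ) ^ (j + 1) = 1 := by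
    simp only [pow_succ]
    rw [tsum_mul_right, tsum_geometric_of_lt_one (by norm_num) (by norm_num)]
    norm_num
  have hh0 : ∀ j, 0 ≤ h' j := fun j => le_max_right _ _
  have hhle : ∀ j, h' j ≤ g j := by
    intro j
    apply max_le _ (hg j)
    have : (0 : ℝ) ≤ (1 / 2) ^ (j + 1) := by positivity
    linarith only [this]
  have hhs : Summable h' := Summable.of_nonneg_of_le hh0 hhle hgs
  have hgh : ∑' j, g j ≤ 1 + ∑' j, h' j := by
    rw [← hgeo1, ← hgeo.tsum_add hhs]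
    apply hgs.tsum_le_tsum _ (hgeo.add hhs)
    intro j
    have := le_max_left (g j - (1 / 2) ^ (j + 1)) 0
    simp only [hh']
    linarith only [this]
  have hS0 : 0 ≤ ∑' j, G j := tsum_nonneg hG
  have hφ5 := hφ0 5 (by norm_num)
  set H : ℝ := ∑' j, h' j with hH
  have hH0 : 0 ≤ H := tsum_nonneg hh0
  rcases hH0.eq_or_lt with hH0 | hHpos
  · have : φ F ≤ φ 5 := hφm (Set.mem_Ici.2 hF0) (Set.mem_Ici.2 (by norm_num)) (by linarith only [hF, hgh, hH0])
    linarith only [hS0, this]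
  · obtain ⟨j, hj⟩ : ∃ j, (1 / 2) ^ (j + 1) * H ≤ h' j := by
      by_contra hcon
      push Not at hcon
      have h1 : ∑' j, h' j < ∑' j : ℕ, (1 / 2 : ℝ) ^ (j + 1) * H :=
        hhs.tsum_lt_tsum (i := 0) (fun j => (hcon j).le) (hcon 0) (hgeo.mul_right H)
      rw [tsum_mul_right, hgeo1, one_mul] at h1
      exact lt_irrefl _ h1
    have hjpos : 0 < h' j := lt_of_lt_of_le (by (clear * - hHpos; positivity)) hj
    have hgj : (1 / 2) ^ (j + 1) < g j := by
      simp only [hh', lt_max_iff, lt_self_iff_false, or_false, sub_pos] at hjpos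
      exact hjpos
    have h5 : (1 / 2 : ℝ) ^ (j + 1) * 2 ^ (j + 1) = 1 := by rw [← mul_pow]; norm_num
    have hg1 : 1 ≤ 2 ^ (j + 1) * g j := by
      rw [← h5, mul_comm]
      exact mul_le_mul_of_nonneg_left hgj.le (by positivity)
    have hHle : H ≤ 2 ^ (j + 1) * g j := by
      have h6 : 2 ^ (j + 1) * ((1 / 2) ^ (j + 1) * H) ≤ 2 ^ (j + 1) * g j :=
        mul_le_mul_of_nonneg_left (hj.trans (hhle j)) (by positivity)
      have h7 : 2 ^ (j + 1) * ((1 / 2) ^ (j + 1) * H) = H := by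
        linear_combination H * h5
      linarith only [h6, h7]
    have hgu : (2 : ℝ) ^ (j + 4) * g j = 8 * (2 ^ (j + 1) * g j) := by
      rw [show j + 4 = 3 + (j + 1) by ring, pow_add]; ring
    have h8 : φ F ≤ φ (2 ^ (j + 4) * g j) := by
      apply hφm (Set.mem_Ici.2 hF0) (Set.mem_Ici.2 (by have := hg j; (clear * - this; positivity)))
      linarith only [hF, hgh, hg1, hHle, hgu]
    have h9 := h j hgj
    have h10 : G j ≤ ∑' j, G j := hGs.le_tsum j (fun i _ => hG i)
    linarith only [hφ5, h8, h9, h10]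

variable {T : ℝ} [hT : Fact (0 < T)]

theorem trigSum_sum (K : ℕ) (P : ℕ → ℤ → ℂ) (n : ℕ) (x : AddCircle T) :
    trigSum (fun i => ∑ k ∈ range K, P k i) n x = ∑ k ∈ range K, trigSum (P k) n x := by
  unfold trigSum
  rw [Finset.sum_comm]
  exact Finset.sum_congr rfl fun i _ => Finset.sum_mul _ _ _

theorem stage3 (hML : MainLemma3 T) (φ : ℝ → ℝ) (hφ0 : ∀ u, 0 ≤ u → 0 ≤ φ u)
    (hφm : MonotoneOn φ (Set.Ici 0)) (hφ : LacCond φ) (j : ℕ) :
    ∃ (d : ℕ) (a : ℤ → ℂ) (d' : ℕ) (b : ℤ → ℂ) (G : AddCircle T → ℝ), Continuous G ∧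
      (∀ x, 0 ≤ G x) ∧
      ∫ x, ‖(trigSum a d x : ℂ)‖ ∂(haarAddCircle (T := T)) ≤ (1 / 4) ^ j ∧
      ∫ x, G x ∂(haarAddCircle (T := T)) ≤ (1 / 2) ^ j ∧
      (∀ x : AddCircle T, (1 / 2) ^ (j + 1) < ‖trigSum a d x‖ →
        φ (2 ^ (j + 4) * ‖trigSum a d x‖) ≤ G x) ∧
      (∀ x : AddCircle T, ‖trigSum b d' x‖ ≤ 3 * (1 / 4) ^ j) ∧
      (∀ x : AddCircle T, (∃ n : ℕ, n ≤ d ∧ (2 : ℝ) ^ j ≤ ‖trigSum a n x‖) ∨
        (2 : ℝ) ^ j ≤ ‖∑ k ∈ Icc (1 : ℤ) d', b k * fourier k x‖) := by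
  obtain ⟨δ, hδ0, hδ1, hlog⟩ : ∃ δ : ℝ, 0 < δ ∧ δ ≤ 1 ∧ Real.log (1 / δ) / 2 - 2 = 8 ^ j := by
    refine ⟨Real.exp (-(2 * (8 ^ j + 2))), Real.exp_pos _, ?_, ?_⟩
    · rw [Real.exp_le_one_iff]
      have : (0 : ℝ) < 8 ^ j := by positivity
      linarith
    · rw [one_div, Real.log_inv, Real.log_exp]
      ring
  obtain ⟨c, hc, C, hC, hML'⟩ := hML
  obtain ⟨K₀, hK₀⟩ := hML' (δ / 2) (by positivity)
  obtain ⟨η, hη⟩ : ∃ η : ℝ, η = c * (1 / 2) ^ (3 * j + 6) / Real.sqrt (2 * C) := ⟨_, rfl⟩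
  have hsC : 0 < Real.sqrt (2 * C) := Real.sqrt_pos.2 (by positivity)
  have hη0 : 0 < η := by rw [hη]; positivity
  -- the size of `K`
  have hlogtop : Filter.Tendsto (fun n : ℕ => Real.log n) Filter.atTop Filter.atTop :=
    Real.tendsto_log_atTop.comp tendsto_natCast_atTop_atTop
  obtain ⟨M₁, hM₁⟩ := Filter.eventually_atTop.1 (hlogtop.eventually_ge_atTop (8 ^ j / c))
  obtain ⟨M₂, hM₂⟩ : ∃ M₂ : ℕ, ∀ n : ℕ, M₂ ≤ n → 2 * C * Real.log n ≤ n := by
    have h1 := (Real.isLittleO_log_id_atTop.def (by positivity : (0 : ℝ) < 1 / (2 * C)))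
    have h2 := tendsto_natCast_atTop_atTop.eventually h1
    obtain ⟨M₂, hM₂⟩ := Filter.eventually_atTop.1 h2
    refine ⟨M₂, fun n hn => ?_⟩
    have h3 := hM₂ n hn
    simp only [id_eq, Real.norm_natCast] at h3
    have h4 := (le_abs_self _).trans h3
    rw [one_div, ← div_eq_inv_mul, le_div_iff₀ (by positivity)] at h4
    linarith
  obtain ⟨K, hKM, v, lam, hv0, hvs, hlam, hsum⟩ :=
    hφ η hη0 (K₀ + M₁ + M₂ + 2 ^ (2 * j + 10))
  have hpow : 1 ≤ 2 ^ (2 * j + 10) := Nat.one_le_two_pow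
  have hKbig : (2 : ℝ) ^ (2 * j + 10) ≤ K := by
    have : 2 ^ (2 * j + 10) ≤ K := by omega
    exact_mod_cast this
  have hK2 : (1024 : ℝ) ≤ K := by
    refine le_trans ?_ hKbig
    have h1 : (2 : ℝ) ^ 10 ≤ 2 ^ (2 * j + 10) := pow_le_pow_right₀ (by norm_num) (by omega)
    linarith
  have hK0 : (0 : ℝ) < K := by linarith
  have hKC : 2 * C * Real.log K ≤ K := hM₂ K (by omega)
  have hKc : 8 ^ j ≤ c * Real.log K := by
    have h1 := hM₁ K (by omega)
    rw [div_le_iff₀ hc] at h1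
    linarith
  have hlogK : 0 < Real.log K := Real.log_pos (by linarith)
  set l : ℝ := Real.log K with hl
  have hcl : 0 < c * l := by positivity
  -- the heights
  have hvmono : ∀ k, v 0 ≤ v k := by
    intro k
    induction k with
    | zero => exact le_rfl
    | succ k ih =>
      have h1 := hvs k
      have h2 : 0 ≤ v 0 := le_trans (by positivity) hv0
      linarith
  have hvk : ∀ k, (K : ℝ) ^ 3 ≤ v k := fun k => hv0.trans (hvmono k)
  have hvpos : ∀ k, 0 < v k := fun k => lt_of_lt_of_le (by positivity) (hvk k)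
  obtain ⟨s, hs⟩ : ∃ s : ℕ → ℝ, ∀ k, s k = Real.sqrt (v k / (2 * C * l)) := ⟨_, fun _ => rfl⟩
  have hsK : ∀ k, (K : ℝ) ≤ s k := by
    intro k
    rw [hs]
    apply Real.le_sqrt_of_sq_le
    rw [le_div_iff₀ (by positivity)]
    calc (K : ℝ) ^ 2 * (2 * C * l) ≤ (K : ℝ) ^ 2 * K := by gcongr
      _ = (K : ℝ) ^ 3 := by ring
      _ ≤ v k := hvk k
  obtain ⟨m, hm⟩ : ∃ m : ℕ → ℕ, ∀ k, m k = ⌊s k⌋₊ := ⟨_, fun _ => rfl⟩
  have hs0 : ∀ k, 0 ≤ s k := fun k => hK0.le.trans (hsK k)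
  have hmK : ∀ k, K ≤ m k := by
    intro k
    rw [hm]
    exact Nat.le_floor (hsK k)
  have hms : ∀ k, (m k : ℝ) ≤ s k := fun k => by rw [hm]; exact Nat.floor_le (hs0 k)
  have hsm : ∀ k, s k ≤ 2 * m k := by
    intro k
    have h1 := Nat.lt_floor_add_one (s k)
    rw [← hm] at h1
    have h2 : (K : ℝ) ≤ m k := by exact_mod_cast hmK k
    linarith
  have hm2 : ∀ k, 2 * m k ≤ m (k + 1) := by
    intro k
    rw [hm (k + 1)]
    apply Nat.le_floor
    push_cast
    have h1 := hms k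
    have h2 : 2 * s k ≤ s (k + 1) := by
      rw [hs, hs]
      apply Real.le_sqrt_of_sq_le
      rw [mul_pow, Real.sq_sqrt (by have := hvpos k; positivity)]
      calc (2 : ℝ) ^ 2 * (v k / (2 * C * l)) = (4 * v k) / (2 * C * l) := by ring
        _ ≤ v (k + 1) / (2 * C * l) := by
          have := hvs k
          gcongr
    linarith
  obtain ⟨d, P, hP1, hP2, hP3⟩ := hK₀ K (by omega) m (hmK 0) hm2
  set α : ℝ := 2 ^ j / (c * l) with hα
  have hα0 : 0 < α := by positivity
  have hα4 : α ≤ (1 / 4) ^ j := by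
    rw [hα, div_le_iff₀ (by positivity)]
    have h4 : (8 : ℝ) ^ j = 2 ^ j * 4 ^ j := by rw [← mul_pow]; norm_num
    have h5 : (1 / 4 : ℝ) ^ j * 4 ^ j = 1 := by rw [← mul_pow]; norm_num
    calc (2 : ℝ) ^ j = (1 / 4) ^ j * 8 ^ j := by rw [h4]; linear_combination (-(2:ℝ)^j) * h5
      _ ≤ (1 / 4) ^ j * (c * l) := by gcongr
  have hα1 : α ≤ 1 := hα4.trans (pow_le_one₀ (by norm_num) (by norm_num))
  -- the blocks
  obtain ⟨g, hg⟩ : ∃ g : ℕ → AddCircle T → ℝ, ∀ k x, g k x = α * ‖trigSum (P k) d x‖ :=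
    ⟨_, fun _ _ => rfl⟩
  have hg0 : ∀ k x, 0 ≤ g k x := fun k x => by rw [hg]; positivity
  have hgc : ∀ k, Continuous (g k) := by
    intro k
    have : g k = fun x => α * ‖trigSum (P k) d x‖ := by ext x; exact hg k x
    rw [this]
    exact continuous_const.mul (continuous_trigSum (P k) d).norm
  have hgle : ∀ k, k < K → ∀ x, g k x ≤ Real.exp (v k / 2) := by
    intro k hk x
    rw [hg]
    have h1 := hP1 k hk x
    have h2 : C * (l * (m k : ℝ) ^ 2) ≤ v k / 2 := by
      have h3 : (m k : ℝ) ^ 2 ≤ s k ^ 2 := by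
        have := hms k
        gcongr
      have h4 : s k ^ 2 = v k / (2 * C * l) := by
        rw [hs, Real.sq_sqrt (by have := hvpos k; positivity)]
      calc C * (l * (m k : ℝ) ^ 2) ≤ C * (l * s k ^ 2) := by gcongr
        _ = v k / 2 := by rw [h4]; field_simp
    calc α * ‖trigSum (P k) d x‖ ≤ 1 * Real.exp (C * (l * (m k : ℝ) ^ 2)) := by gcongr
      _ ≤ Real.exp (v k / 2) := by rw [one_mul]; exact Real.exp_le_exp.2 h2
  have hgint : ∀ k, k < K → ∫ x, g k x ∂(haarAddCircle (T := T)) ≤ α * (1 / (K * m k)) := by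
    intro k hk
    simp only [hg]
    rw [integral_const_mul]
    exact mul_le_mul_of_nonneg_left (hP2 k hk) hα0.le
  have hnorm : ∀ n (x : AddCircle T),
      ‖trigSum (fun i => (α : ℂ) * ∑ k ∈ range K, P k i) n x‖ =
        α * ‖trigSum (fun i => ∑ k ∈ range K, P k i) n x‖ := by
    intro n x
    rw [trigSum_smul, norm_mul, Complex.norm_real, Real.norm_of_nonneg hα0.le]
  have hnorm2 : ∀ (x : AddCircle T),
      ‖trigSum (fun i => (α : ℂ) * ∑ k ∈ range K, P k i) d x‖ ≤ ∑ k ∈ range K, g k x := by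
    intro x
    rw [hnorm, trigSum_sum]
    calc α * ‖∑ k ∈ range K, trigSum (P k) d x‖ ≤ α * ∑ k ∈ range K, ‖trigSum (P k) d x‖ := by
          gcongr
          exact norm_sum_le _ _
      _ = ∑ k ∈ range K, g k x := by
          rw [Finset.mul_sum]
          exact Finset.sum_congr rfl fun k _ => (hg k x).symm
  have hlam0 : ∀ k, k < K → 0 ≤ lam k := by
    intro k hk
    have h2 := hlam k hk 1 le_rfl (by rw [Real.log_one]; exact (hvpos k).le)
    have h3 := hφ0 1 zero_le_one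
    linarith
  -- the exceptional set
  set E : Set (AddCircle T) := {x | ∀ n : ℕ, n ≤ d →
    ‖trigSum (fun i => ∑ k ∈ range K, P k i) n x‖ ≤ c * l} with hE
  have hEc : IsClosed E := by
    have : E = ⋂ (n : ℕ) (_ : n ≤ d), {x : AddCircle T |
        ‖trigSum (fun i => ∑ k ∈ range K, P k i) n x‖ ≤ c * l} := by
      ext x; simp only [hE, Set.mem_ofPred_eq, Set.mem_iInter]
    rw [this]
    refine isClosed_iInter fun n => isClosed_iInter fun _ => ?_
    exact isClosed_le (continuous_trigSum _ n).norm continuous_const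
  have hEm : haarAddCircle E < ENNReal.ofReal δ := by
    refine lt_of_le_of_lt hP3 ?_
    rw [ENNReal.ofReal_lt_ofReal_iff hδ0]
    linarith only [hδ0]
  obtain ⟨d', b, hb3, hbE⟩ := kk_lemma δ hδ0 hδ1 E hEc.isCompact hEm
  have hGc : Continuous fun x : AddCircle T => 2 * 2 ^ (j + 4) * ∑ k ∈ range K, lam k * g k x :=
    continuous_const.mul (continuous_finset_sum _ fun k _ => continuous_const.mul (hgc k))
  refine ⟨d, fun i => (α : ℂ) * ∑ k ∈ range K, P k i, d', fun k => (((1 / 4) ^ j : ℝ) : ℂ) * b k,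
    fun x => 2 * 2 ^ (j + 4) * ∑ k ∈ range K, lam k * g k x, hGc, ?_, ?_, ?_, ?_, ?_, ?_⟩
  · intro x
    have : 0 ≤ ∑ k ∈ range K, lam k * g k x :=
      Finset.sum_nonneg fun k hk => mul_nonneg (hlam0 k (Finset.mem_range.1 hk)) (hg0 k x)
    positivity
  · have h1 : ∫ x, ‖(trigSum (fun i => (α : ℂ) * ∑ k ∈ range K, P k i) d x : ℂ)‖
        ∂(haarAddCircle (T := T)) ≤ ∫ x, ∑ k ∈ range K, g k x ∂(haarAddCircle (T := T)) :=
      integral_mono (integrable_of_continuous (continuous_trigSum _ _).norm)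
        (integrable_of_continuous (continuous_finset_sum _ fun k _ => hgc k)) hnorm2
    rw [integral_finset_sum _ fun k _ => integrable_of_continuous (hgc k)] at h1
    refine h1.trans ?_
    have h2 : ∀ k ∈ range K, ∫ x, g k x ∂(haarAddCircle (T := T)) ≤ α * (1 / (K * K)) := by
      intro k hk
      refine (hgint k (Finset.mem_range.1 hk)).trans ?_
      have : (K : ℝ) ≤ m k := by exact_mod_cast hmK k
      gcongr
    refine (Finset.sum_le_sum h2).trans ?_
    rw [Finset.sum_const, Finset.card_range, nsmul_eq_mul]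
    calc (K : ℝ) * (α * (1 / (K * K))) = α * (1 / K) := by field_simp
      _ ≤ α * 1 := by
        gcongr
        rw [div_le_one hK0]
        linarith
      _ ≤ (1 / 4) ^ j := by rw [mul_one]; exact hα4
  · rw [integral_const_mul, integral_finset_sum _ fun k _ =>
      (integrable_of_continuous (hgc k)).const_mul _]
    have h2 : ∀ k ∈ range K, ∫ x, lam k * g k x ∂(haarAddCircle (T := T)) ≤
        (2 * α * (Real.sqrt (2 * C) * Real.sqrt l) / K) * (lam k / Real.sqrt (v k)) := by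
      intro k hk
      have hk' := Finset.mem_range.1 hk
      rw [integral_const_mul]
      have h3 := hgint k hk'
      have h4 : 1 / (m k : ℝ) ≤ 2 / s k := by
        have hm0 : (0 : ℝ) < m k := by
          have : (K : ℝ) ≤ m k := by exact_mod_cast hmK k
          linarith
        have hs0' : 0 < s k := by have := hsK k; linarith
        rw [div_le_div_iff₀ hm0 hs0', one_mul]
        exact hsm k
      have h5 : 2 / s k = 2 * (Real.sqrt (2 * C) * Real.sqrt l) / Real.sqrt (v k) := by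
        rw [hs, Real.sqrt_div (hvpos k).le, Real.sqrt_mul (by positivity), div_div_eq_mul_div]
      calc lam k * ∫ x, g k x ∂(haarAddCircle (T := T)) ≤ lam k * (α * (1 / (K * m k))) :=
            mul_le_mul_of_nonneg_left h3 (hlam0 k hk')
        _ = (lam k * α / K) * (1 / m k) := by field_simp
        _ ≤ (lam k * α / K) * (2 / s k) := by
            have := hlam0 k hk'
            gcongr
        _ = _ := by rw [h5]; ring
    have h3 := Finset.sum_le_sum h2
    rw [← Finset.mul_sum] at h3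
    have h4 : (2 * α * (Real.sqrt (2 * C) * Real.sqrt l) / K) *
        ∑ k ∈ range K, lam k / Real.sqrt (v k) ≤
        (2 * α * (Real.sqrt (2 * C) * Real.sqrt l) / K) * (η * (K * Real.sqrt l)) := by
      gcongr
    have h5 : (2 * α * (Real.sqrt (2 * C) * Real.sqrt l) / K) * (η * (K * Real.sqrt l)) =
        2 * (α * (c * l)) * (1 / 2) ^ (3 * j + 6) := by
      have h6 : Real.sqrt l * Real.sqrt l = l := Real.mul_self_sqrt hlogK.le
      rw [hη]
      calc _ = 2 * (α * (c * (Real.sqrt l * Real.sqrt l))) * (1 / 2) ^ (3 * j + 6) := by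
            field_simp
        _ = _ := by rw [h6]
    have h6 : α * (c * l) = 2 ^ j := by rw [hα]; field_simp
    rw [h5, h6] at h4
    calc 2 * 2 ^ (j + 4) * ∑ k ∈ range K, ∫ x, lam k * g k x ∂(haarAddCircle (T := T)) ≤
          2 * 2 ^ (j + 4) * (2 * 2 ^ j * (1 / 2) ^ (3 * j + 6)) := by
            gcongr
            exact h3.trans h4
      _ = (1 / 2) ^ j := by
        have h7 : (1 / 2 : ℝ) ^ (3 * j + 6) = (1 / 2) ^ (j + 4) * (1 / 2) ^ (j + 2) * (1 / 2) ^ j := by
          rw [← pow_add, ← pow_add]; congr 1; ring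
        have h8 : (1 / 2 : ℝ) ^ (j + 4) * 2 ^ (j + 4) = 1 := by rw [← mul_pow]; norm_num
        have h9 : (1 / 2 : ℝ) ^ (j + 2) * 2 ^ (j + 2) = 1 := by rw [← mul_pow]; norm_num
        have h10 : 2 * 2 ^ (j + 4) * (2 * 2 ^ j * (1 / 2 : ℝ) ^ (3 * j + 6)) =
            ((1 / 2 : ℝ) ^ (j + 4) * 2 ^ (j + 4)) * ((1 / 2 : ℝ) ^ (j + 2) * 2 ^ (j + 2)) *
              (1 / 2) ^ j := by
          rw [h7, pow_add 2 j 2]; ring
        rw [h10, h8, h9]; ring
  · intro x hx
    have h1 := hnorm2 x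
    have h5 : (1 / 2 : ℝ) ^ (j + 1) * 2 ^ (j + 1) = 1 := by rw [← mul_pow]; norm_num
    have hS : (1 : ℝ) ≤ 2 ^ (j + 4) * ∑ k ∈ range K, g k x := by
      calc (1 : ℝ) = 2 ^ (j + 1) * (1 / 2) ^ (j + 1) := by rw [mul_comm]; exact h5.symm
        _ ≤ 2 ^ (j + 4) * ∑ k ∈ range K, g k x := by
          gcongr
          · norm_num
          · omega
          · exact hx.le.trans h1
    refine (hφm (Set.mem_Ici.2 (by positivity)) (Set.mem_Ici.2 (by linarith))
      (mul_le_mul_of_nonneg_left h1 (by positivity))).trans ?_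
    refine pt_bound φ hφ0 K v lam (fun k => g k x) (2 ^ (j + 4)) (one_le_pow₀ (by norm_num))
      hvmono ?_ hlam (fun k _ => hg0 k x) (fun k hk => hgle k hk x) hS
    have h6 : (K : ℝ) * 2 ^ (2 * j + 10) ≤ (K : ℝ) ^ 3 / 2 + 1 := by
      have h7 : (K : ℝ) * 2 ^ (2 * j + 10) ≤ K * K := by gcongr
      have h8 : (K : ℝ) * K ≤ K ^ 3 / 2 := by nlinarith
      linarith
    have h7 := Real.add_one_le_exp (v 0 / 2)
    have h8 : 2 * (K : ℝ) * 2 ^ (j + 4) ≤ K * 2 ^ (2 * j + 10) := by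
      calc 2 * (K : ℝ) * 2 ^ (j + 4) = K * 2 ^ (j + 5) := by rw [pow_succ 2 (j + 4)]; ring
        _ ≤ K * 2 ^ (2 * j + 10) :=
          mul_le_mul_of_nonneg_left (pow_le_pow_right₀ (by norm_num) (by omega)) hK0.le
    linarith
  · intro x
    rw [trigSum_smul, norm_mul, Complex.norm_real, Real.norm_of_nonneg (by positivity), mul_comm]
    exact mul_le_mul_of_nonneg_right (hb3 x) (by positivity)
  · intro x
    by_cases hx : x ∈ E
    · right
      have h1 := hbE x hx
      rw [hlog] at h1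
      have h2 : ∑ k ∈ Icc (1 : ℤ) d', (((1 / 4) ^ j : ℝ) : ℂ) * b k * fourier k x =
          (((1 / 4) ^ j : ℝ) : ℂ) * ∑ k ∈ Icc (1 : ℤ) d', b k * fourier k x := by
        rw [Finset.mul_sum]
        exact Finset.sum_congr rfl fun k _ => by ring
      rw [h2, norm_mul, Complex.norm_real, Real.norm_of_nonneg (by positivity)]
      have h3 : (2 : ℝ) ^ j = (1 / 4) ^ j * 8 ^ j := by rw [← mul_pow]; norm_num
      rw [h3]
      exact mul_le_mul_of_nonneg_left h1 (by positivity)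
    · left
      simp only [hE, Set.mem_ofPred_eq] at hx
      push Not at hx
      obtain ⟨n, hn, hx⟩ := hx
      refine ⟨n, hn, ?_⟩
      rw [hnorm]
      have h1 : (2 : ℝ) ^ j = α * (c * l) := by rw [hα]; field_simp
      rw [h1]
      exact mul_le_mul_of_nonneg_left hx.le hα0.le

end Vale.Agent.P091.H203
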