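import Vale.Agent.P091.H203.Core

set_option linter.all false

open MeasureTheory AddCircle Finset

namespace Vale.Agent.P091.H203

open Vale.Agent.P091 Vale.Agent.P091.H409

variable {T : ℝ} [hT : Fact (0 < T)]

/-- Everywhere divergence in `φ(L)` under the lacunary growth condition. -/
theorem divergence_lac (hML : MainLemma3 T) (φ : ℝ → ℝ) (hφ0 : ∀ u, 0 ≤ u → 0 ≤ φ u)
    (hφm : MonotoneOn φ (Set.Ici 0)) (hφ : LacCond φ) :
    ∃ f : AddCircle T → ℂ, Integrable f haarAddCircle ∧
      Integrable (fun x => φ ‖f x‖) haarAddCircle ∧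
      ∀ x : AddCircle T, ¬ BddAbove (Set.range fun N : ℕ =>
        ‖∑ k ∈ Finset.Icc (-(N : ℤ)) (N : ℤ), fourierCoeff f k * fourier k x‖) := by
  change ∃ f : AddCircle T → ℂ, Integrable f haarAddCircle ∧
      Integrable (fun x => φ ‖f x‖) haarAddCircle ∧
      ∀ x, ¬ BddAbove (Set.range fun N : ℕ => ‖partialS f N x‖)
  choose d a d' b G hGc hG0 hint hGint hφG hb hlarge using stage3 hML φ hφ0 hφm hφ
  let D : ℕ → ℕ := fun i => if i % 2 = 0 then d (i / 2) else d' (i / 2)
  let A : ℕ → ℤ → ℂ := fun i => if i % 2 = 0 then a (i / 2) else b (i / 2)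
  have hD0 : ∀ k, D (2 * k) = d k := by intro k; simp only [Nat.mul_mod_right, ↓reduceIte, ne_eq, OfNat.ofNat_ne_zero, not_false_eq_true, mul_div_cancel_left₀, D]
  have hD1 : ∀ k, D (2 * k + 1) = d' k := by
    intro k
    simp only [D]
    rw [if_neg (by omega)]
    congr 1; omega
  have hA0 : ∀ k, A (2 * k) = a k := by intro k; simp only [Nat.mul_mod_right, ↓reduceIte, ne_eq, OfNat.ofNat_ne_zero, not_false_eq_true, mul_div_cancel_left₀, A]
  have hA1 : ∀ k, A (2 * k + 1) = b k := by
    intro k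
    simp only [A]
    rw [if_neg (by omega)]
    congr 1; omega
  have hgeo4 : Summable fun j : ℕ => (1 / 4 : ℝ) ^ j :=
    summable_geometric_of_lt_one (by norm_num) (by norm_num)
  have hgeo2 : Summable fun j : ℕ => (1 / 2 : ℝ) ^ j :=
    summable_geometric_of_lt_one (by norm_num) (by norm_num)
  have hgeo4' : ∑' j : ℕ, 3 * (1 / 4 : ℝ) ^ j = 4 := by
    rw [tsum_mul_left, tsum_geometric_of_lt_one (by norm_num) (by norm_num)]
    norm_num
  have hs0 : Summable fun k => ∫ x, ‖(trigSum (a k) (d k) x : ℂ)‖ ∂(haarAddCircle (T := T)) :=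
    Summable.of_nonneg_of_le (fun k => integral_nonneg fun x => norm_nonneg _) hint hgeo4
  have hs1 : Summable fun k => ∫ x, ‖(trigSum (b k) (d' k) x : ℂ)‖ ∂(haarAddCircle (T := T)) := by
    refine Summable.of_nonneg_of_le (fun k => integral_nonneg fun x => norm_nonneg _) ?_
      (hgeo4.mul_left 3)
    intro k
    have h1 : ∫ x, ‖(trigSum (b k) (d' k) x : ℂ)‖ ∂(haarAddCircle (T := T)) ≤
        ∫ _, 3 * (1 / 4 : ℝ) ^ k ∂(haarAddCircle (T := T)) :=
      integral_mono (integrable_of_continuous (continuous_trigSum _ _).norm)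
        (integrable_const _) (hb k)
    simpa only [one_div, inv_pow, ge_iff_le, integral_const, probReal_univ, smul_eq_mul, one_mul] using h1
  have hsum : Summable fun i => ∫ x, ‖(trigSum (A i) (D i) x : ℂ)‖ ∂(haarAddCircle (T := T)) := by
    have he : HasSum (fun k => ∫ x, ‖(trigSum (A (2 * k)) (D (2 * k)) x : ℂ)‖
        ∂(haarAddCircle (T := T)))
        (∑' k, ∫ x, ‖(trigSum (a k) (d k) x : ℂ)‖ ∂(haarAddCircle (T := T))) := by
      simp only [hA0, hD0]
      exact hs0.hasSum
    have ho : HasSum (fun k => ∫ x, ‖(trigSum (A (2 * k + 1)) (D (2 * k + 1)) x : ℂ)‖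
        ∂(haarAddCircle (T := T)))
        (∑' k, ∫ x, ‖(trigSum (b k) (d' k) x : ℂ)‖ ∂(haarAddCircle (T := T))) := by
      simp only [hA1, hD1]
      exact hs1.hasSum
    exact (HasSum.even_add_odd (f := fun i => ∫ x, ‖(trigSum (A i) (D i) x : ℂ)‖
        ∂(haarAddCircle (T := T))) he ho).summable
  obtain ⟨f, hf, hfle, hblk⟩ := glide D A hsum
  refine ⟨f, hf, ?_, ?_⟩
  · -- integrability of `φ ‖f‖`
    have hae1 := (ae_summable_and_integrable_tsum
      (F := fun k (x : AddCircle T) => trigSum (a k) (d k) x)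
      (fun k => integrable_of_continuous (continuous_trigSum (a k) (d k))) hs0).1
    have hae2 := ae_summable_and_integrable_tsum (μ := haarAddCircle (T := T))
      (F := fun k (x : AddCircle T) => G k x)
      (fun k => integrable_of_continuous (hGc k)) (by
        refine Summable.of_nonneg_of_le (fun k => integral_nonneg fun x => norm_nonneg _) ?_ hgeo2
        intro k
        simp only [Real.norm_of_nonneg (hG0 k _)]
        exact hGint k)
    have hmono : Monotone fun u : ℝ => φ (max u 0) := by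
      intro u v huv
      exact hφm (Set.mem_Ici.2 (le_max_right _ _)) (Set.mem_Ici.2 (le_max_right _ _))
        (max_le_max huv le_rfl)
    have hmeas : AEStronglyMeasurable (fun x => φ ‖f x‖) (haarAddCircle (T := T)) := by
      have h1 : (fun x => φ ‖f x‖) = (fun u : ℝ => φ (max u 0)) ∘ fun x => ‖f x‖ := by
        ext x; simp only [Function.comp_apply, norm_nonneg, sup_of_le_left]
      rw [h1]
      exact (hmono.measurable.comp_aemeasurable hf.1.norm.aemeasurable).aestronglyMeasurable
    refine Integrable.mono' (g := fun x => φ 5 + ∑' k, G k x)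
      ((integrable_const _).add hae2.2) hmeas ?_
    filter_upwards [hae1, hae2.1] with x hx1 hx2
    rw [Real.norm_of_nonneg (hφ0 _ (norm_nonneg _))]
    have hx2' : Summable fun k => G k x := by
      simpa only [Real.norm_of_nonneg (hG0 _ _)] using hx2
    have hx3 : Summable fun k => ‖(trigSum (b k) (d' k) x : ℂ)‖ :=
      Summable.of_nonneg_of_le (fun k => norm_nonneg _) (fun k => hb k x) (hgeo4.mul_left 3)
    apply phi_bound_gen φ hφ0 hφm (fun k => ‖trigSum (a k) (d k) x‖) (fun k => G k x)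
      (fun k => norm_nonneg _) (fun k => hG0 k x)
      hx1 hx2' (fun k => hφG k x) _ (norm_nonneg _)
    have he : HasSum (fun k => ‖(trigSum (A (2 * k)) (D (2 * k)) x : ℂ)‖)
        (∑' k, ‖trigSum (a k) (d k) x‖) := by
      simp only [hA0, hD0]
      exact hx1.hasSum
    have ho : HasSum (fun k => ‖(trigSum (A (2 * k + 1)) (D (2 * k + 1)) x : ℂ)‖)
        (∑' k, ‖trigSum (b k) (d' k) x‖) := by
      simp only [hA1, hD1]
      exact hx3.hasSum
    have hall := HasSum.even_add_odd (f := fun i => ‖(trigSum (A i) (D i) x : ℂ)‖) he ho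
    have h1 := hfle x hall.summable
    rw [hall.tsum_eq] at h1
    have h2 : ∑' k, ‖trigSum (b k) (d' k) x‖ ≤ 4 := by
      rw [← hgeo4']
      exact hx3.tsum_le_tsum (fun k => hb k x) (hgeo4.mul_left 3)
    linarith only [h1, h2]
  · intro x hbdd
    obtain ⟨B, hB⟩ := hbdd
    have hB' : ∀ N : ℕ, ‖partialS f N x‖ ≤ B := fun N => hB ⟨N, rfl⟩
    have hdiff : ∀ N₁ N₂ : ℕ, ‖partialS f N₂ x - partialS f N₁ x‖ ≤ 2 * B := by
      intro N₁ N₂
      refine (norm_sub_le _ _).trans ?_
      have h1 := hB' N₁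
      have h2 := hB' N₂
      linarith only [h1, h2]
    have hall : ∀ j : ℕ, (2 : ℝ) ^ j ≤ 2 * B := by
      intro j
      rcases hlarge j x with ⟨n, hn, hn'⟩ | hj
      · obtain ⟨N₁, N₂, hN⟩ := hblk (2 * j) (-(n : ℤ)) n (by rw [hD0]; omega) (by omega)
          (by rw [hD0]; omega) x
        rw [hA0] at hN
        unfold trigSum at hn'
        rw [hN] at hn'
        exact hn'.trans (hdiff N₁ N₂)
      · by_cases hd' : d' j = 0
        · rw [hd'] at hj
          have h0 : (2 : ℝ) ^ j ≤ 0 := by simpa only [CharP.cast_eq_zero, zero_lt_one, Icc_eq_empty_of_lt, fourier_apply, sum_empty, norm_zero] using hj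
          have : (0 : ℝ) < 2 ^ j := by positivity
          linarith only [h0, this]
        · obtain ⟨N₁, N₂, hN⟩ := hblk (2 * j + 1) 1 (d' j) (by rw [hD1]; omega) (by omega)
            (by rw [hD1]) x
          rw [hA1] at hN
          rw [hN] at hj
          exact hj.trans (hdiff N₁ N₂)
    obtain ⟨j, hj⟩ := pow_unbounded_of_one_lt (2 * B) (one_lt_two)
    exact absurd (hall j) (not_le.2 hj)

end Vale.Agent.P091.H203
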