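import Vale.Agent.P091.H203.Final

set_option linter.all false

open MeasureTheory AddCircle Finset

namespace Vale.Agent.P091.H203

open Vale.Agent.P091 Vale.Agent.P091.H409

/-- `log (log (4 ^ k * V)) ≤ 2 log K` for `k < K` and `V ≤ 8 K ^ 3`. -/
theorem loglog_le (K k : ℕ) (V : ℝ) (hK : 8 ≤ K) (hk : k < K) (hV0 : (K : ℝ) ^ 3 ≤ V)
    (hV : V ≤ 8 * (K : ℝ) ^ 3) :
    1 ≤ Real.log (4 ^ k * V) ∧ Real.log (4 ^ k * V) ≤ 8 * K ∧
      Real.log (Real.log (4 ^ k * V)) ≤ 2 * Real.log K := by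
  have hKr : (8 : ℝ) ≤ K := by exact_mod_cast hK
  have hK0 : (0 : ℝ) < K := by linarith
  have hV1 : 0 < V := lt_of_lt_of_le (by positivity) hV0
  have h4 : (1 : ℝ) ≤ 4 ^ k := one_le_pow₀ (by norm_num)
  have hup : Real.log (4 ^ k * V) ≤ 8 * K := by
    rw [Real.log_mul (by positivity) hV1.ne', Real.log_pow]
    have h1 : Real.log 4 ≤ 2 := by
      have h2 : Real.log 4 = 2 * Real.log 2 := by
        rw [show (4 : ℝ) = 2 ^ 2 by norm_num, Real.log_pow]; norm_num
      have := Real.log_two_lt_d9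
      linarith
    have h1' : 0 ≤ Real.log 4 := Real.log_nonneg (by norm_num)
    have h2 : (k : ℝ) ≤ K := by exact_mod_cast hk.le
    have h3 : Real.log V ≤ 6 * K := by
      calc Real.log V ≤ Real.log (8 * (K : ℝ) ^ 3) := Real.log_le_log hV1 hV
        _ = Real.log ((2 * (K : ℝ)) ^ 3) := by congr 1; ring
        _ = 3 * Real.log (2 * K) := by rw [Real.log_pow]; norm_num
        _ ≤ 3 * (2 * K) := by
          have := Real.log_le_sub_one_of_pos (by positivity : (0 : ℝ) < 2 * K)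
          linarith
        _ = 6 * K := by ring
    nlinarith
  have hlow : 1 ≤ Real.log (4 ^ k * V) := by
    rw [Real.le_log_iff_exp_le (by positivity)]
    have h1 := Real.exp_one_lt_d9
    have h2 : (8 : ℝ) ≤ (K : ℝ) ^ 3 := by
      calc (8 : ℝ) ≤ K := hKr
        _ ≤ K ^ 3 := le_self_pow₀ (by linarith) (by norm_num)
    calc Real.exp 1 ≤ 8 := by linarith
      _ ≤ V := h2.trans hV0
      _ = 1 * V := (one_mul V).symm
      _ ≤ 4 ^ k * V := by gcongr
  refine ⟨hlow, hup, ?_⟩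
  calc Real.log (Real.log (4 ^ k * V)) ≤ Real.log ((K : ℝ) ^ 2) := by
        apply Real.log_le_log (by linarith)
        nlinarith
    _ = 2 * Real.log K := by rw [Real.log_pow]; norm_num

/-- the condition holds if, for arbitrarily large `y`, one has
`φ(u) ≤ η u √(log u · log log log u)` for `y ≤ u ≤ e ^ y` and the same bound at `y` for smaller
`u`. -/
theorem lacCond_of_window (φ : ℝ → ℝ)
    (h : ∀ η : ℝ, 0 < η → ∀ Y : ℝ, ∃ y : ℝ, Y ≤ y ∧
      ∀ u v : ℝ, 1 ≤ u → u ≤ v → y ≤ v → v ≤ Real.exp y →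
        φ u ≤ η * (u * Real.sqrt (Real.log v * Real.log (Real.log (Real.log v))))) :
    LacCond φ := by
  intro η hη M
  obtain ⟨y, hy, hφ⟩ := h (η / 2) (by positivity) (Real.exp (((M : ℝ) + 8) ^ 3))
  have hy0 : 0 < y := (Real.exp_pos _).trans_le hy
  have hlogy : ((M : ℝ) + 8) ^ 3 ≤ Real.log y := by
    rw [Real.le_log_iff_exp_le hy0]; exact hy
  have hly0 : 0 < Real.log y := lt_of_lt_of_le (by positivity) hlogy
  obtain ⟨r, hr⟩ : ∃ r : ℝ, r = Real.log y ^ (1 / 3 : ℝ) := ⟨_, rfl⟩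
  have hr0 : 0 ≤ r := by rw [hr]; positivity
  have hr3 : r ^ 3 = Real.log y := by
    rw [hr, ← Real.rpow_natCast, ← Real.rpow_mul hly0.le]
    norm_num
  have hrM : (M : ℝ) + 8 ≤ r := by
    rw [← hr3] at hlogy
    exact le_of_pow_le_pow_left₀ (by norm_num) hr0 hlogy
  obtain ⟨K, hK⟩ : ∃ K : ℕ, K = ⌊r⌋₊ := ⟨_, rfl⟩
  have hKM : M + 8 ≤ K := by
    rw [hK]
    apply Nat.le_floor
    push_cast
    exact hrM
  have hKr : (K : ℝ) ≤ r := by rw [hK]; exact Nat.floor_le hr0
  have hrK : r ≤ K + 1 := by rw [hK]; exact (Nat.lt_floor_add_one r).le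
  have hK8 : (8 : ℝ) ≤ K := by
    have : 8 ≤ K := by omega
    exact_mod_cast this
  have hK3 : (K : ℝ) ^ 3 ≤ Real.log y := by rw [← hr3]; gcongr
  have hK83 : Real.log y ≤ 8 * (K : ℝ) ^ 3 := by
    rw [← hr3]
    calc r ^ 3 ≤ (2 * (K : ℝ)) ^ 3 := by gcongr; linarith
      _ = 8 * (K : ℝ) ^ 3 := by ring
  have hvpos : ∀ k : ℕ, 0 < 4 ^ k * Real.log y := fun k => by positivity
  refine ⟨K, by omega, fun k => 4 ^ k * Real.log y,
    fun k => η / 2 * Real.sqrt (4 ^ k * Real.log y * Real.log (Real.log (4 ^ k * Real.log y))),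
    ?_, ?_, ?_, ?_⟩
  · simpa using hK3
  · intro k
    change 4 * (4 ^ k * Real.log y) ≤ 4 ^ (k + 1) * Real.log y
    rw [pow_succ]
    linarith
  · intro k hk u hu1 hu
    have hu0 : 0 < u := by linarith
    obtain ⟨h1, h2, h3⟩ := loglog_le K k (Real.log y) (by omega) hk hK3 hK83
    have hv : u ≤ Real.exp (4 ^ k * Real.log y) := by
      rw [← Real.log_le_iff_le_exp hu0]; exact hu
    have h4 := hφ u (Real.exp (4 ^ k * Real.log y)) hu1 hv (by
        rw [← Real.log_le_iff_le_exp hy0]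
        have : (1 : ℝ) ≤ 4 ^ k := one_le_pow₀ (by norm_num)
        nlinarith) (by
        rw [Real.exp_le_exp]
        have h5 : 4 ^ k * Real.log y ≤ Real.exp (8 * K) := by
          rw [← Real.log_le_iff_le_exp (hvpos k)]; exact h2
        refine h5.trans ?_
        rw [← Real.le_log_iff_exp_le hy0]
        refine le_trans ?_ hK3
        have h6 : (8 : ℝ) ≤ K * K := by nlinarith
        calc 8 * (K : ℝ) ≤ (K * K) * K := by gcongr
          _ = (K : ℝ) ^ 3 := by ring)
    rw [Real.log_exp] at h4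
    linarith
  · have hterm : ∀ k ∈ range K, η / 2 * Real.sqrt (4 ^ k * Real.log y *
        Real.log (Real.log (4 ^ k * Real.log y))) / Real.sqrt (4 ^ k * Real.log y) ≤
        η * Real.sqrt (Real.log K) := by
      intro k hk
      obtain ⟨h1, h2, h3⟩ := loglog_le K k (Real.log y) (by omega) (Finset.mem_range.1 hk) hK3 hK83
      have h4 : 0 < Real.sqrt (4 ^ k * Real.log y) := Real.sqrt_pos.2 (hvpos k)
      rw [Real.sqrt_mul (hvpos k).le, div_le_iff₀ h4]
      have h5 : Real.sqrt (Real.log (Real.log (4 ^ k * Real.log y))) ≤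
          2 * Real.sqrt (Real.log K) := by
        have h6 : 0 ≤ Real.log K := Real.log_nonneg (by linarith)
        rw [show (2 : ℝ) * Real.sqrt (Real.log K) = Real.sqrt (2 ^ 2 * Real.log K) by
          rw [Real.sqrt_mul (by norm_num), Real.sqrt_sq (by norm_num)]]
        apply Real.sqrt_le_sqrt
        linarith
      calc η / 2 * (Real.sqrt (4 ^ k * Real.log y) *
            Real.sqrt (Real.log (Real.log (4 ^ k * Real.log y)))) ≤
            η / 2 * (Real.sqrt (4 ^ k * Real.log y) * (2 * Real.sqrt (Real.log K))) := by gcongr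
        _ = η * Real.sqrt (Real.log K) * Real.sqrt (4 ^ k * Real.log y) := by ring
    refine (Finset.sum_le_sum hterm).trans ?_
    rw [Finset.sum_const, Finset.card_range, nsmul_eq_mul]
    linarith

theorem lacCond_of_little_o (φ : ℝ → ℝ) (hφ0 : ∀ u, 0 ≤ u → 0 ≤ φ u)
    (hφm : MonotoneOn φ (Set.Ici 0))
    (hφ : Filter.Tendsto (fun u => φ u /
      (u * Real.sqrt (Real.log u * Real.log (Real.log (Real.log u))))) Filter.atTop (nhds 0)) :
    LacCond φ := by
  apply lacCond_of_window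
  intro η hη Y
  have hW : Filter.Tendsto (fun v : ℝ => Real.sqrt (Real.log v *
      Real.log (Real.log (Real.log v)))) Filter.atTop Filter.atTop := by
    have h1 := Real.tendsto_log_atTop
    have h2 := h1.comp (h1.comp h1)
    exact Real.tendsto_sqrt_atTop.comp (h1.atTop_mul_atTop₀ h2)
  obtain ⟨U₁, hU₁⟩ := Filter.eventually_atTop.1 (hφ.eventually (gt_mem_nhds hη))
  obtain ⟨U, hU⟩ : ∃ U : ℝ, U = max U₁ (Real.exp (Real.exp 2)) := ⟨_, rfl⟩
  have hUU₁ : U₁ ≤ U := by rw [hU]; exact le_max_left _ _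
  have hU2 : Real.exp (Real.exp 2) ≤ U := by rw [hU]; exact le_max_right _ _
  have hU0 : 0 < U := (Real.exp_pos _).trans_le hU2
  have hll : ∀ u : ℝ, U ≤ u → Real.exp 2 ≤ Real.log u ∧ 2 ≤ Real.log (Real.log u) ∧
      0 < Real.log (Real.log (Real.log u)) := by
    intro u hu
    have hu0 : 0 < u := hU0.trans_le hu
    have h1 : Real.exp 2 ≤ Real.log u := by
      rw [Real.le_log_iff_exp_le hu0]; exact hU2.trans hu
    have h2 : 2 ≤ Real.log (Real.log u) := by
      rw [Real.le_log_iff_exp_le ((Real.exp_pos _).trans_le h1)]; exact h1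
    exact ⟨h1, h2, Real.log_pos (by linarith)⟩
  obtain ⟨Y₁, hY₁⟩ := Filter.eventually_atTop.1 (hW.eventually_ge_atTop (φ U / η))
  refine ⟨max Y (max Y₁ U), le_max_left _ _, fun u v hu1 huv hyv _ => ?_⟩
  have hvY₁ : Y₁ ≤ v := ((le_max_left _ _).trans (le_max_right _ _)).trans hyv
  have hvU : U ≤ v := ((le_max_right _ _).trans (le_max_right _ _)).trans hyv
  have hu0 : 0 < u := by linarith
  by_cases huU : u ≤ U
  · have h1 : φ u ≤ φ U := hφm (Set.mem_Ici.2 hu0.le) (Set.mem_Ici.2 hU0.le) huU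
    have h2 := hY₁ v hvY₁
    rw [div_le_iff₀ hη] at h2
    refine h1.trans (h2.trans ?_)
    have h3 : 0 ≤ Real.sqrt (Real.log v * Real.log (Real.log (Real.log v))) := Real.sqrt_nonneg _
    nlinarith [mul_nonneg hη.le h3]
  · push Not at huU
    obtain ⟨h1, h2, h3⟩ := hll u huU.le
    have h4 := hU₁ u (hUU₁.trans huU.le)
    have h5 : 0 < Real.log u := (Real.exp_pos _).trans_le h1
    rw [div_lt_iff₀ (by positivity)] at h4
    refine h4.le.trans ?_
    have h6 : Real.log u ≤ Real.log v := Real.log_le_log hu0 huv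
    have h7 : Real.log (Real.log u) ≤ Real.log (Real.log v) := Real.log_le_log h5 h6
    have h8 : Real.log (Real.log (Real.log u)) ≤ Real.log (Real.log (Real.log v)) :=
      Real.log_le_log (by linarith) h7
    have h9 : 0 ≤ Real.log v := h5.le.trans h6
    gcongr

variable {T : ℝ} [hT : Fact (0 < T)]

/-- `φ(u) = o(u √(log u · log log log u))` -/
theorem divergence_little_o3 (hML : MainLemma3 T) (φ : ℝ → ℝ) (hφ0 : ∀ u, 0 ≤ u → 0 ≤ φ u)
    (hφm : MonotoneOn φ (Set.Ici 0))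
    (hφ : Filter.Tendsto (fun u => φ u /
      (u * Real.sqrt (Real.log u * Real.log (Real.log (Real.log u))))) Filter.atTop (nhds 0)) :
    ∃ f : AddCircle T → ℂ, Integrable f haarAddCircle ∧
      Integrable (fun x => φ ‖f x‖) haarAddCircle ∧
      ∀ x : AddCircle T, ¬ BddAbove (Set.range fun N : ℕ =>
        ‖∑ k ∈ Finset.Icc (-(N : ℤ)) (N : ℤ), fourierCoeff f k * fourier k x‖) :=
  divergence_lac hML φ hφ0 hφm (lacCond_of_little_o φ hφ0 hφm hφ)

/-- Orlicz classes in which every Fourier series has a point of bounded partial sums. -/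
theorem orlicz_mean (hML : MainLemma3 T) (φ : ℝ → ℝ) (hφ0 : ∀ u, 0 ≤ u → 0 ≤ φ u)
    (hφm : MonotoneOn φ (Set.Ici 0)) (hφr : MonotoneOn (fun u => φ u / u) (Set.Ioi 0))
    (hconv : ∀ f : AddCircle T → ℂ, Integrable f haarAddCircle →
        Integrable (fun x => φ ‖f x‖) haarAddCircle →
        ∃ x : AddCircle T, BddAbove (Set.range fun N : ℕ =>
          ‖∑ k ∈ Finset.Icc (-(N : ℤ)) (N : ℤ), fourierCoeff f k * fourier k x‖)) :
    ∃ c : ℝ, 0 < c ∧ ∃ K₀ : ℕ, ∀ K : ℕ, K₀ ≤ K → ∀ v : ℕ → ℝ, (K : ℝ) ^ 3 ≤ v 0 →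
      (∀ k, 4 * v k ≤ v (k + 1)) →
      c * (K * Real.sqrt (Real.log K)) ≤
        ∑ k ∈ range K, φ (Real.exp (v k)) / (Real.exp (v k) * Real.sqrt (v k)) := by
  by_contra hcon
  push Not at hcon
  obtain ⟨f, hf, hφf, hdiv⟩ := divergence_lac hML φ hφ0 hφm (by
    intro η hη M
    obtain ⟨K, hK, v, h1, h2, h3⟩ := hcon η hη M
    refine ⟨K, hK, v, fun k => φ (Real.exp (v k)) / Real.exp (v k), h1, h2, ?_, ?_⟩
    · intro k _ u hu1 hu
      have hu0 : 0 < u := by linarith
      have h4 : φ u / u ≤ φ (Real.exp (v k)) / Real.exp (v k) :=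
        hφr (Set.mem_Ioi.2 hu0) (Set.mem_Ioi.2 (Real.exp_pos _))
          ((Real.log_le_iff_le_exp hu0).1 hu)
      rwa [div_le_iff₀ hu0] at h4
    · simp only [div_div]
      exact h3.le)
  obtain ⟨x, hx⟩ := hconv f hf hφf
  exact hdiv x hx

/-- In every window `[y, e ^ y]`, `y` large, such a `φ` is somewhere at least
`c u √(log u · log log log u)`. -/
theorem orlicz_window (hML : MainLemma3 T) (φ : ℝ → ℝ) (hφ0 : ∀ u, 0 ≤ u → 0 ≤ φ u)
    (hφm : MonotoneOn φ (Set.Ici 0)) (hφr : MonotoneOn (fun u => φ u / u) (Set.Ioi 0))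
    (hconv : ∀ f : AddCircle T → ℂ, Integrable f haarAddCircle →
        Integrable (fun x => φ ‖f x‖) haarAddCircle →
        ∃ x : AddCircle T, BddAbove (Set.range fun N : ℕ =>
          ‖∑ k ∈ Finset.Icc (-(N : ℤ)) (N : ℤ), fourierCoeff f k * fourier k x‖)) :
    ∃ c : ℝ, 0 < c ∧ ∀ᶠ y in Filter.atTop, ∃ u : ℝ, y ≤ u ∧ u ≤ Real.exp y ∧
      c * (u * Real.sqrt (Real.log u * Real.log (Real.log (Real.log u)))) ≤ φ u := by
  by_contra hcon
  push Not at hcon
  obtain ⟨f, hf, hφf, hdiv⟩ := divergence_lac hML φ hφ0 hφm (by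
    apply lacCond_of_window
    intro η hη Y
    obtain ⟨y, h1, h2⟩ :=
      ((hcon η hη).and_eventually (Filter.eventually_ge_atTop Y)).exists
    refine ⟨y, h2, fun u v hu1 huv hyv hvy => ?_⟩
    have hu0 : 0 < u := by linarith
    have hv0 : 0 < v := by linarith
    have h3 := h1 v hyv hvy
    have h4 : φ u / u ≤ φ v / v := hφr (Set.mem_Ioi.2 hu0) (Set.mem_Ioi.2 hv0) huv
    have h5 : φ v / v ≤ η * Real.sqrt (Real.log v * Real.log (Real.log (Real.log v))) := by
      rw [div_le_iff₀ hv0]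
      linarith
    have h6 := h4.trans h5
    rw [div_le_iff₀ hu0] at h6
    linarith)
  obtain ⟨x, hx⟩ := hconv f hf hφf
  exact hdiv x hx

end Vale.Agent.P091.H203
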